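import Mathlib

/-! Definitions used in the statement for P133. -/

namespace Vale.Agent.P133

variable {C : Type*} [NonUnitalCStarAlgebra C] [PartialOrder C] [StarOrderedRing C]

/-- `diag(h, …, h, 0, …, 0)` in `M_N(C)`, with `k` copies of `h`. -/
noncomputable def amp (N k : ℕ) (h : C) : CStarMatrix (Fin N) (Fin N) C :=
  CStarMatrix.ofMatrix (Matrix.diagonal fun i => if i.val < k then h else 0)

/-- Cuntz comparison of the `k`-fold amplification of `h` with its `l`-fold amplification in
`C ⊗ K`, tested on the dense subalgebra of finite matrices. -/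
def AmpLE (k l : ℕ) (h : C) : Prop :=
  ∀ ε > 0, ∃ N, k ≤ N ∧ l ≤ N ∧ ∃ x : CStarMatrix (Fin N) (Fin N) C,
    ‖star x * amp N l h * x - amp N k h‖ < ε

variable (C)

/-- Every positive element is properly infinite. -/
def PurelyInfinite : Prop := ∀ h : C, 0 ≤ h → AmpLE 2 1 h

/-- For some `n ≥ 1` the `n`-fold amplification of every positive element is properly infinite. -/
def WeaklyPurelyInfinite : Prop := ∃ n, 1 ≤ n ∧ ∀ h : C, 0 ≤ h → AmpLE (2 * n) n h

/-- Strong pure infiniteness. -/
def StronglyPurelyInfinite : Prop :=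
  ∀ x y : C, 0 ≤ x → 0 ≤ y → ∀ ε > 0, ∃ s t : C, ‖star s * (x * x) * s - x * x‖ < ε ∧
    ‖star t * (y * y) * t - y * y‖ < ε ∧ ‖star s * (x * y) * t‖ < ε

end Vale.Agent.P133
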